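import Vale.Agent.P323.H894.ColAm
import Vale.Agent.P323.Z.NameTheory

/-!
# Section 12: no condition forces AC
-/

namespace Vale.Agent.P323.H341

open CategoryTheory Vale.Agent.P323.Z NameTheory TwBase Vale.Agent.P323.H894

noncomputable section

variable {D : Type 1} [Category.{1} D]

/-! ### The trivial pseudogroup and the trivial tasks -/

/-- a mono with a section is an isomorphism -/
theorem isIso_of_section [TwBase D] {x y : D} {s : x ⟶ y} {r : y ⟶ x} (h : r ≫ s = 𝟙 y) :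
    IsIso s := by
  have := TwBase.mono s
  refine ⟨r, ?_, h⟩
  rw [← cancel_mono s, Category.assoc, h, Category.comp_id, Category.id_comp]

/-- the trivial pseudogroup -/
def trivPG [TwBase D] (i : Ordinal.{0}) (b : D) (hb : Mem i (𝟙 b)) : PG D i b where
  rel {d} s t := s = t ∧ IsIso s ∧ Mem i s
  mem := fun ⟨h, _, h'⟩ => ⟨h', h ▸ h'⟩
  one := ⟨rfl, inferInstance, hb⟩
  symm := by rintro d s t ⟨rfl, h, h'⟩; exact ⟨rfl, h, h'⟩
  comp := by
    rintro d d' e s t s' t' g g' ⟨rfl, hs, hs'⟩ ⟨rfl, ht, ht'⟩ hpb hg hg'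
    refine ⟨hpb.1, ?_, mem_comp hg hs'⟩
    obtain ⟨w, hw1, hw2⟩ := hpb.2 (𝟙 d) (s ≫ inv s') (by simp)
    have := isIso_of_section hw1
    infer_instance
  up := by
    rintro d e s t g hs ht hg ⟨h, hi, _⟩
    have h1 : IsIso s := isIso_of_section (r := inv (g ≫ s) ≫ g) (by simp)
    have h2 : IsIso g := IsIso.of_isIso_comp_right g s
    refine ⟨?_, h1, hs⟩
    rwa [cancel_epi] at h

/-- the task with target `a (n + 1)` and trivial pseudogroup -/
def tkX [TwBase D] (i : Ordinal.{0}) {n : ℕ} {c : D} (α : (a n : D) ⟶ c) (hα : Mem i α)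
    (h1 : Mem i (𝟙 (a (n + 1) : D))) : Task D i where
  n := n
  c := c
  α := α
  b := a (n + 1)
  E := trivPG i _ h1
  γ := 𝟙 _
  hα := hα
  hγ := h1
  inv := by rintro d s t ⟨rfl, h, _⟩; exact ⟨inv s, by simp, by simp⟩

theorem mem_one [TwBase D] (i : Ordinal.{0}) (n : ℕ) : Mem i (𝟙 (a (n + 1) : D)) :=
  mem_mono zero_le (mem_tgt (ι_mem n))

/-- every object maps to `a 1` -/
theorem to_a1 [Tw D] (x : D) : Nonempty (x ⟶ (a 1 : D)) := by
  obtain ⟨α⟩ := from_a0 x
  obtain ⟨i, hi⟩ := mem_ex α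
  exact ⟨Tw.gen (tkX i α hi (mem_one i 0))⟩

/-- the generator of the task `tkX i (ι n)` -/
def genX [Tw D] (i : Ordinal.{0}) (n : ℕ) (h0 : Mem i (ι n : (a n : D) ⟶ a (n + 1))) :
    (a (n + 1) : D) ⟶ a (n + 1) := Tw.gen (tkX i (ι n) h0 (mem_one i n))

/-- the generator of the task `tkX i (ι n)` is not below `ι n` -/
theorem gen_not [Tw D] (i : Ordinal.{0}) (n : ℕ) (h0 : Mem i (ι n : (a n : D) ⟶ a (n + 1))) :
    ¬ Thru (genX i n h0) (ι n : (a n : D) ⟶ a (n + 1)) := by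
  rintro ⟨g, hg⟩
  rcases Tw.G4 (tkX i (ι n) h0 (mem_one i n)) (ι n) h0 with ⟨B, A, u, hu, h, hiso, hm⟩ | h
  · have hiso' : IsIso (u ≫ (ι n : (a n : D) ⟶ a (n + 1))) := h ▸ hiso
    refine ι_not (D := D) n ⟨inv (u ≫ ι n) ≫ u, ?_⟩
    rw [Category.assoc, IsIso.inv_hom_id]
  · exact ι_not (D := D) n (h g (𝟙 (a (n + 1) : D)) (hg.trans (Category.id_comp _).symm))

theorem gen_new [Tw D] (i : Ordinal.{0}) (n : ℕ) (h0 : Mem i (ι n : (a n : D) ⟶ a (n + 1))) :
    ¬ Mem i (genX i n h0) := by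
  intro h
  refine ι_not (D := D) n (Tw.G6 (tkX i (ι n) h0 (mem_one i n)) (𝟙 (a (n + 1) : D)) ?_)
  have h2 : 𝟙 (a (n + 1) : D) ≫ genX i n h0 = genX i n h0 := Category.id_comp _
  exact h2 ▸ h

theorem not_small_ord : ¬ Small.{0} Ordinal.{0} := fun h => by
  have := @not_small_ordinal.{0, 0}
  exact this h

/-- there are non-small many maps into `a (n + 1)` which are not below `ι n`. -/
theorem not_small_new [Tw D] (n : ℕ) :
    ¬ Small.{0} {u : Dn (a (n + 1) : D) // ¬ Thru u.2 (ι n)} := by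
  intro hs
  have h0 : ∀ i : Ordinal.{0}, Mem i (ι n : (a n : D) ⟶ a (n + 1)) :=
    fun i => mem_mono zero_le (ι_mem n)
  let f : Ordinal.{0} → {u : Dn (a (n + 1) : D) // ¬ Thru u.2 (ι n)} := fun i =>
    ⟨⟨a (n + 1), genX i n (h0 i)⟩, gen_not i n (h0 i)⟩
  have key : ∀ i j : Ordinal.{0}, i < j → f i ≠ f j := by
    intro i j hij h
    have h1 := congrArg Subtype.val h
    have h2 := eq_of_heq (Sigma.mk.inj h1).2
    refine gen_new j n (h0 j) ?_
    rw [← h2]
    exact mem_mono (Order.add_one_le_of_lt hij) (Tw.gen_mem _)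
  have hf : Function.Injective f := by
    intro i j h
    rcases lt_trichotomy i j with h' | h' | h'
    · exact absurd h (key i j h')
    · exact h'
    · exact absurd h.symm (key j i h')
  exact not_small_ord (small_of_injective hf)

/-! ### Codes and one-point colourings -/

/-- codes of the elements of `Dn x` -/
def code (x : D) (z : Dn x) : Ordinal.{1} := Ordinal.typein (α := Dn x) WellOrderingRel z

theorem code_inj {x : D} {z z' : Dn x} (h : code x z = code x z') : z = z' :=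
  (Ordinal.typein (α := Dn x) WellOrderingRel).injective h

open Classical in
/-- the colouring with one coloured point -/
def pt {x : D} (z : Dn x) (c : Bool) : Col x := fun w => if w = z then some c else none

theorem pt_self {x : D} (z : Dn x) (c : Bool) : pt z c z = some c := by simp [pt]

theorem pt_eq_some {x : D} {z w : Dn x} {c c' : Bool} : pt z c w = some c' ↔ w = z ∧ c = c' := by
  classical
  unfold pt
  split_ifs with h <;> simp [h]

theorem sm_pt {x : D} (z : Dn x) (c : Bool) : Col.Sm (pt z c) := by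
  have : Subsingleton {w // pt z c w ≠ none} := by
    constructor
    rintro ⟨w, hw⟩ ⟨w', hw'⟩
    obtain ⟨d, hd⟩ := Option.ne_none_iff_exists'.1 hw
    obtain ⟨d', hd'⟩ := Option.ne_none_iff_exists'.1 hw'
    exact Subtype.ext ((pt_eq_some.1 hd).1.trans (pt_eq_some.1 hd').1.symm)
  exact small_subsingleton _

/-! ### The names -/

/-- the condition `(a 1, ∅)` -/
abbrev Z1 [TwBase D] : CObj D := rc (a 1) (emp _) (sm_emp _)

/-- the condition `(a 2, ∅)` -/
abbrev Z2 [TwBase D] : CObj D := rc (a 2) (emp _) (sm_emp _)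

/-- `ι 1` as a coloured morphism -/
def iX [TwBase D] : (Z1 : CObj D) ⟶ Z2 := mkHom (X := Z1) (Y := Z2) (ι 1) (emp_le _)

/-- the condition `(a 2, {u ↦ 1})` -/
abbrev Z2u [TwBase D] (u : Dn (a 2 : D)) : CObj D := rc (a 2) (pt u true) (sm_pt _ _)

/-- the identity `(a 2, ∅) ⟶ (a 2, {u ↦ 1})` -/
def iU [TwBase D] (u : Dn (a 2 : D)) : (Z2 : CObj D) ⟶ Z2u u :=
  mkHom (X := Z2) (Y := Z2u u) (𝟙 (a 2 : D)) (emp_le _)

@[simp] theorem iX_u [TwBase D] : (iX : (Z1 : CObj D) ⟶ Z2).u = ι 1 := rfl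

@[simp] theorem iU_u [TwBase D] (u : Dn (a 2 : D)) : (iU u).u = 𝟙 (a 2 : D) := rfl

theorem iU_comp [TwBase D] (u : Dn (a 2 : D)) {W : CObj D} (w : Z2u u ⟶ W) :
    (iU u ≫ w).u = w.u := by
  rw [comp_u, iU_u]
  exact Category.id_comp _

variable [Tw D] [NameTheory (CObj D)]

/-- the name of the set of codes of the maps into `a 2` with colour `1` -/
def cN : N (Z2 : CObj D) :=
  mkN Z2 (I := Dn (a 2 : D)) (fun u => Z2u u) (fun u => iU u) (fun u => ck (code _ u) _)

/-- the name of the set of all copies of `cN` over `Z1` -/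
def TN : N (Z1 : CObj D) :=
  mkN Z1 (I := PUnit.{2}) (fun _ => Z2) (fun _ => iX) (fun _ => cN)

/-- indices of the family `AN` -/
structure AIdx (X : CObj D) : Type 1 where
  W : CObj D
  v : X ⟶ W
  e : Z1 ⟶ W

/-- the family of all copies of `TN` -/
def AN (X : CObj D) : N X :=
  mkN X (I := AIdx X) (fun m => m.W) (fun m => m.v) (fun m => mv m.e TN)

theorem cN_mem {W : CObj D} (e : Z2 ⟶ W) (u : Dn (a 2 : D))
    (h : W.p (Dn.post e.u u) = some true) : fmem (ck (code _ u) W) (mv e cN) := by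
  refine (fmem_mkN Z2 _ _ _ e _).2 fun {W'} k => ?_
  have hle : Col.Le (pt u true) (Col.pull (e ≫ k).u W'.p) := by
    intro z c hz
    obtain ⟨h1, h2⟩ : z = u ∧ true = c := pt_eq_some.1 hz
    rw [h1, ← h2]
    change W'.p (Dn.post (e ≫ k).u u) = some true
    rw [comp_u, Dn.post_comp]
    exact hom_le k _ _ h
  let w : Z2u u ⟶ W' := mkHom (X := Z2u u) (e ≫ k).u hle
  refine ⟨W', 𝟙 _, u, w, ?_, ?_⟩
  · apply chom_ext
    rw [iU_comp, Category.comp_id]
    rfl
  · exact feq_trans (ck_mv _ _) (feq_symm (ck_mv _ _))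

theorem cN_not {W : CObj D} (e : Z2 ⟶ W) (u : Dn (a 2 : D))
    (h : W.p (Dn.post e.u u) = some false) : ¬ fmem (ck (code _ u) W) (mv e cN) := by
  intro hm
  obtain ⟨W', k, u', w, hw, he⟩ := (fmem_mkN Z2 _ _ _ e _).1 hm (𝟙 W)
  have h1 : code _ u = code _ u' :=
    ck_ne (feq_trans (feq_symm (ck_mv _ _)) (feq_trans he (ck_mv _ _)))
  have h2 := code_inj h1
  subst h2
  have h3 : W'.p (Dn.post w.u u) = some true := hom_le w u true (pt_self u true)
  have h4 : w.u = e.u ≫ k.u := by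
    have := congrArg CHom.u hw
    rw [iU_comp, Category.id_comp] at this
    exact this.symm
  rw [h4, Dn.post_comp] at h3
  have h5 : W'.p (Dn.post k.u (Dn.post e.u u)) = some false := hom_le k _ _ h
  rw [h5] at h3
  simp at h3

/-- over every condition, `TN` has an element at some extension. -/
theorem TN_nonempty {W : CObj D} (e : Z1 ⟶ W) :
    ∃ (V : CObj D) (j : W ⟶ V) (y : N V), fmem y (mv (e ≫ j) TN) := by
  obtain ⟨A⟩ := exists_cam e (iX : (Z1 : CObj D) ⟶ Z2) (by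
    intro z c c' _ h
    cases h)
  refine ⟨A.W, A.j1, mv A.j2 cN, ?_⟩
  refine (fmem_mkN Z1 _ _ _ (e ≫ A.j1) _).2 fun {W'} k =>
    ⟨W', 𝟙 _, PUnit.unit, A.j2 ≫ k, ?_, ?_⟩
  · rw [Category.comp_id, A.comm, Category.assoc]
  · rw [mv_mv, Category.comp_id]
    exact feq_refl _

theorem TN_mem {W : CObj D} (e : Z1 ⟶ W) {y : N W} (h : fmem y (mv e TN)) :
    ∃ (V : CObj D) (j : W ⟶ V) (w : Z2 ⟶ V), e ≫ j = iX ≫ w ∧ feq (mv j y) (mv w cN) := by
  obtain ⟨V, j, -, w, hw, he⟩ := (fmem_mkN Z1 _ _ _ e _).1 h (𝟙 W)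
  rw [Category.id_comp] at hw he
  exact ⟨V, j, w, hw, he⟩

theorem AN_mem {X W : CObj D} (v : X ⟶ W) (e : Z1 ⟶ W) : fmem (mv e TN) (mv v (AN X)) := by
  refine (fmem_mkN X _ _ _ v _).2 fun {W'} k => ⟨W', 𝟙 _, ⟨W, v, e⟩, k, ?_, ?_⟩
  · rw [Category.comp_id]
  · rw [Category.comp_id]
    exact feq_refl _

theorem AN_nonempty {X W : CObj D} (v : X ⟶ W) (x : N W) (h : fmem x (mv v (AN X))) :
    ∃ (V : CObj D) (j : W ⟶ V) (y : N V), fmem y (mv j x) := by
  obtain ⟨W', h, m, w, hw, he⟩ := (fmem_mkN X _ _ _ v _).1 h (𝟙 W)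
  rw [Category.id_comp] at hw he
  rw [mv_mv] at he
  obtain ⟨V, j, y, hy⟩ := TN_nonempty (m.e ≫ w)
  refine ⟨V, h ≫ j, y, ?_⟩
  have h1 := feq_mv j he
  rw [mv_mv, mv_mv] at h1
  exact fmem_congr (feq_refl _) (feq_symm h1) hy

omit [Tw D] [NameTheory (CObj D)] in
/-- two coloured points can be added to a condition. -/
theorem add_two {V : CObj D} (z z' : Dn V.x) (hz : V.p z = none) (hz' : V.p z' = none)
    (hne : z ≠ z') : ∃ (V' : CObj D) (j : V ⟶ V'), V'.p (Dn.post j.u z) = some true ∧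
      V'.p (Dn.post j.u z') = some false := by
  have hq : Col.Sm (Col.union V.p (Col.union (pt z true) (pt z' false))) :=
    sm_union V.sm (sm_union (sm_pt _ _) (sm_pt _ _))
  refine ⟨rc V.x _ hq, toRc hq (le_union_left _ _), ?_, ?_⟩
  · rw [toRc_u, Dn.post_id]
    change Col.union V.p (Col.union (pt z true) (pt z' false)) z = _
    simp [Col.union, hz, pt_self]
  · rw [toRc_u, Dn.post_id]
    change Col.union V.p (Col.union (pt z true) (pt z' false)) z' = _
    have h1 : pt z true z' = none := by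
      rw [← Option.not_isSome_iff_eq_none, Option.isSome_iff_exists]
      rintro ⟨c, hc⟩
      exact hne (pt_eq_some.1 hc).1.symm
    simp [Col.union, hz', h1, pt_self]

/-- Two morphisms `Z2 ⟶ V` which agree exactly on `ι 1` give different sets. -/
theorem cN_ne {V : CObj D} (e₁ e₂ : Z2 ⟶ V)
    (hpb : ∀ {z : D} (u : z ⟶ (a 2 : D)), u ≫ e₁.u = u ≫ e₂.u → Thru u (ι 1)) :
    ¬ feq (mv e₁ cN) (mv e₂ cN) := by
  intro heq
  -- an uncoloured point
  obtain ⟨u, hu, h1, h2⟩ : ∃ u : Dn (a 2 : D), ¬ Thru u.2 (ι 1) ∧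
      V.p (Dn.post e₁.u u) = none ∧ V.p (Dn.post e₂.u u) = none := by
    by_contra hcon
    push Not at hcon
    have hsm := V.sm
    apply not_small_new (D := D) 1
    have key : ∀ u : {u : Dn (a 2 : D) // ¬ Thru u.2 (ι 1)},
        V.p (Dn.post e₁.u u.1) ≠ none ∨ V.p (Dn.post e₂.u u.1) ≠ none := by
      intro u
      by_contra h
      push Not at h
      exact hcon u.1 u.2 h.1 h.2
    classical
    let F : {u : Dn (a 2 : D) // ¬ Thru u.2 (ι 1)} → {z // V.p z ≠ none} ⊕ {z // V.p z ≠ none} :=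
      fun u => if h : V.p (Dn.post e₁.u u.1) ≠ none then Sum.inl ⟨_, h⟩
        else Sum.inr ⟨_, (key u).resolve_left h⟩
    have hF : Function.Injective F := by
      intro u u' h
      by_cases c1 : V.p (Dn.post e₁.u u.1) ≠ none <;>
        by_cases c2 : V.p (Dn.post e₁.u u'.1) ≠ none
      · simp only [F, dif_pos c1, dif_pos c2] at h
        have := congrArg Subtype.val (Sum.inl.inj h)
        exact Subtype.ext (Dn.post_injective _ this)
      · simp only [F, dif_pos c1, dif_neg c2] at h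
        cases h
      · simp only [F, dif_neg c1, dif_pos c2] at h
        cases h
      · simp only [F, dif_neg c1, dif_neg c2] at h
        have := congrArg Subtype.val (Sum.inr.inj h)
        exact Subtype.ext (Dn.post_injective _ this)
    exact small_of_injective hF
  have hne : Dn.post e₁.u u ≠ Dn.post e₂.u u := by
    intro h
    have h' := eq_of_heq (Sigma.mk.inj h).2
    exact hu (hpb u.2 h')
  obtain ⟨V', j, hj1, hj2⟩ := add_two _ _ h1 h2 hne
  have e1 : fmem (ck (code _ u) V') (mv (e₁ ≫ j) cN) := by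
    apply cN_mem
    rw [comp_u, Dn.post_comp]
    exact hj1
  have e2 : ¬ fmem (ck (code _ u) V') (mv (e₂ ≫ j) cN) := by
    apply cN_not
    rw [comp_u, Dn.post_comp]
    exact hj2
  have h3 := feq_mv j heq
  rw [mv_mv, mv_mv] at h3
  exact e2 (fmem_congr (feq_refl _) h3 e1)

omit [NameTheory (CObj D)] in
/-- every condition has an extension with underlying object `a 1` -/
theorem ext_a1 (X : CObj D) : ∃ (X' : CObj D) (_ : X ⟶ X') (e : Z1 ⟶ X'), IsIso e.u := by
  obtain ⟨α⟩ := to_a1 X.x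
  refine ⟨⟨a 1, Col.push α X.p, sm_push _ X.sm⟩, mkHom α ?_, mkHom (𝟙 (a 1 : D)) (emp_le _), ?_⟩
  · change Col.Le X.p (Col.pull α (Col.push α X.p))
    rw [pull_push]
    exact Col.Le.refl _
  · change IsIso (𝟙 (a 1 : D))
    infer_instance

variable (D) in
/-- **Section 12**: no condition forces AC. -/
theorem noAC : NoAC (CObj D) := by
  intro X
  refine ⟨X, 𝟙 X, AN X, fun v x h => AN_nonempty v x h, ?_⟩
  intro W v K hK
  -- extend `W` to a condition over `a 1`
  obtain ⟨X', h, e0, he0⟩ := ext_a1 W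
  have hx0 : fmem (mv e0 TN) (mv h (mv v (AN X))) := by
    rw [mv_mv]
    exact AN_mem (v ≫ h) e0
  obtain ⟨W', k, y, hK1, hy⟩ := hK.2 h (mv e0 TN) hx0
  rw [mv_mv] at hy
  obtain ⟨W'', h', e, he, hye⟩ := TN_mem (e0 ≫ k) hy
  -- `g : X' ⟶ W''`
  obtain ⟨A⟩ := exists_cam (k ≫ h') (k ≫ h') (by
    intro z c c' h1 h2
    exact Option.some.inj (h1.symm.trans h2))
  have hK2 : fmem (op (mv (k ≫ h') (mv e0 TN)) (mv e cN)) (mv (h ≫ k ≫ h') K) := by
    have h1 := fmem_mv h' hK1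
    rw [mv_mv] at h1
    have h2 := fmem_congr (feq_trans (op_mv h' _ _) (op_feq.2 ⟨feq_refl _, hye⟩)) (feq_refl _) h1
    simpa only [mv_mv, Category.assoc] using h2
  have hK3 : ∀ j : W'' ⟶ A.W, fmem (op (mv (k ≫ h' ≫ j) (mv e0 TN)) (mv (e ≫ j) cN))
      (mv (h ≫ k ≫ h' ≫ j) K) := by
    intro j
    have h1 := fmem_mv j hK2
    rw [mv_mv] at h1
    have h2 := fmem_congr (op_mv j _ _) (feq_refl _) h1
    simpa only [mv_mv, Category.assoc] using h2
  have hcomm : k ≫ h' ≫ A.j1 = k ≫ h' ≫ A.j2 := by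
    have := A.comm
    simpa only [Category.assoc] using this
  have h1 := hK3 A.j1
  have h2 := hK3 A.j2
  rw [hcomm] at h1
  have heq : feq (mv (e ≫ A.j1) cN) (mv (e ≫ A.j2) cN) := hK.1 _ _ _ _ h1 h2
  refine cN_ne (e ≫ A.j1) (e ≫ A.j2) ?_ heq
  intro z u hu
  rw [comp_u, comp_u] at hu
  have hu' : (u ≫ e.u) ≫ A.j1.u = (u ≫ e.u) ≫ A.j2.u := by
    simpa only [Category.assoc] using hu
  obtain ⟨w, hw1, hw2⟩ := A.pb.2 _ _ hu'
  -- `u ≫ e = w ≫ g`, `g = e0⁻¹ ≫ ι ≫ e`
  have hg : e0.u ≫ (k ≫ h').u = ι 1 ≫ e.u := by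
    have := congrArg CHom.u he
    rw [Category.assoc, comp_u, comp_u iX, iX_u] at this
    exact this
  have hg' : (k ≫ h').u = inv e0.u ≫ ι 1 ≫ e.u := by
    rw [← hg, IsIso.inv_hom_id_assoc]
  refine ⟨w ≫ inv e0.u, ?_⟩
  have := TwBase.mono e.u
  rw [← cancel_mono e.u, ← hw1, hg']
  simp only [Category.assoc]

end

end Vale.Agent.P323.H341
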